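import Mathlib

/-!
# Unit speed closed horizontal curves on the three sphere

For every length `J > 0` we build a closed curve in `S³ ⊂ ℂ²`, in the coordinates
`(cos θ e^{iα}, sin θ e^{iβ})`, of length `J`, parametrised by arc length and orthogonal to
the Hopf circles.  The only nonexplicit datum is the first zero `a` of
`a ↦ ∫₀^π cos (a sin s) ds`.
-/

open scoped ContDiff
open Real

namespace Vale.Agent.Lib.P205

/-- The primitive of `g` based at the origin. -/
noncomputable def prim (g : ℝ → ℝ) (x : ℝ) : ℝ := ∫ t in (0:ℝ)..x, g t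

lemma prim_hasDerivAt {g : ℝ → ℝ} (hg : Continuous g) (x : ℝ) : HasDerivAt (prim g) (g x) x :=
  (hg.integral_hasStrictDerivAt 0 x).hasDerivAt

lemma prim_contDiff {g : ℝ → ℝ} (hg : ContDiff ℝ ∞ g) : ContDiff ℝ ∞ (prim g) := by
  rw [contDiff_infty_iff_deriv]
  have hc := hg.continuous
  refine ⟨fun x => (prim_hasDerivAt hc x).differentiableAt, ?_⟩
  have : deriv (prim g) = g := funext fun x => (prim_hasDerivAt hc x).deriv
  rw [this]; exact hg

lemma prim_add {g : ℝ → ℝ} (hg : Continuous g) (x T : ℝ) :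
    prim g (x + T) - prim g x = ∫ t in x..x + T, g t := by
  unfold prim
  have i1 : IntervalIntegrable g MeasureTheory.volume 0 x := hg.intervalIntegrable _ _
  have i2 : IntervalIntegrable g MeasureTheory.volume x (x + T) := hg.intervalIntegrable _ _
  have := intervalIntegral.integral_add_adjacent_intervals i1 i2
  linarith

lemma prim_anti {g : ℝ → ℝ} (hg : Continuous g) {q : ℝ} (hq : ∀ u, g (u + q) = - g u) (x : ℝ) :
    prim g (x + 2 * q) = prim g x := by
  have h1 := prim_add hg x (2 * q)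
  have i1 : IntervalIntegrable g MeasureTheory.volume x (x + q) := hg.intervalIntegrable _ _
  have i2 : IntervalIntegrable g MeasureTheory.volume (x + q) (x + 2 * q) :=
    hg.intervalIntegrable _ _
  have h2 := intervalIntegral.integral_add_adjacent_intervals i1 i2
  have h3 : ∫ t in (x + q)..(x + 2 * q), g t = ∫ t in x..(x + q), g (t + q) := by
    rw [intervalIntegral.integral_comp_add_right]
    congr 1; ring
  have h4 : ∫ t in x..(x + q), g (t + q) = - ∫ t in x..(x + q), g t := by
    rw [← intervalIntegral.integral_neg]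
    congr 1; funext t; exact hq t
  linarith

lemma cos_pi_sin_le (s : ℝ) (h0 : 0 ≤ s) (h1 : s ≤ π) : cos (π * sin s) ≤ cos (2 * s) := by
  have key : ∀ t : ℝ, 0 ≤ t → t ≤ π / 2 → cos (π * sin t) ≤ cos (2 * t) := by
    intro t ht0 ht1
    have hj := Real.mul_le_sin ht0 ht1
    have hpi := pi_pos
    have hle : 2 * t ≤ π * sin t := by
      have : π * (2 / π * t) ≤ π * sin t := mul_le_mul_of_nonneg_left hj hpi.le
      have h2 : π * (2 / π * t) = 2 * t := by field_simp
      linarith
    have hs1 : π * sin t ≤ π := by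
      have := sin_le_one t
      nlinarith
    exact Real.cos_le_cos_of_nonneg_of_le_pi (by linarith) hs1 hle
  by_cases hs : s ≤ π / 2
  · exact key s h0 hs
  · have hs' : π / 2 < s := not_le.mp hs
    have := key (π - s) (by linarith) (by linarith)
    rw [sin_pi_sub] at this
    have h2 : cos (2 * (π - s)) = cos (2 * s) := by
      have : 2 * (π - s) = -(2 * s) + 2 * π := by ring
      rw [this, cos_add_two_pi, cos_neg]
    linarith

/-- The first zero of the Bessel function `J₀`, through its integral, up to a non-explicit choice. -/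
lemma exists_zero : ∃ a : ℝ, ∫ s in (0:ℝ)..π, cos (a * sin s) = 0 := by
  have hcont : Continuous (fun a : ℝ => ∫ s in (0:ℝ)..π, cos (a * sin s)) := by
    have := intervalIntegral.continuous_parametric_intervalIntegral_of_continuous
      (μ := MeasureTheory.volume) (a₀ := (0:ℝ)) (f := fun (a s : ℝ) => cos (a * sin s))
      (s := fun _ => π) (by
        have : Function.uncurry (fun (a s : ℝ) => cos (a * sin s))
            = fun z : ℝ × ℝ => cos (z.1 * sin z.2) := by
          funext z; rfl
        rw [this]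
        fun_prop) continuous_const
    exact this
  have h0 : 0 ≤ ∫ s in (0:ℝ)..π, cos (0 * sin s) := by
    simp [pi_pos.le]
  have h1 : ∫ s in (0:ℝ)..π, cos (π * sin s) ≤ 0 := by
    have hle : ∫ s in (0:ℝ)..π, cos (π * sin s) ≤ ∫ s in (0:ℝ)..π, cos (2 * s) := by
      apply intervalIntegral.integral_mono_on pi_pos.le
      · exact (by fun_prop : Continuous fun s : ℝ => cos (π * sin s)).intervalIntegrable _ _
      · exact (by fun_prop : Continuous fun s : ℝ => cos (2 * s)).intervalIntegrable _ _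
      · intro s hs
        exact cos_pi_sin_le s hs.1 hs.2
    have hz : ∫ s in (0:ℝ)..π, cos (2 * s) = 0 := by
      rw [intervalIntegral.integral_comp_mul_left _ (by norm_num : (2:ℝ) ≠ 0)]
      simp
    linarith
  exact mem_range_of_exists_le_of_exists_ge hcont ⟨π, h1⟩ ⟨0, h0⟩

/-- Existence of the curve. -/
theorem curve (J : ℝ) (hJ : 0 < J) : ∃ θ α β c s : ℝ → ℝ,
    ContDiff ℝ ∞ θ ∧ ContDiff ℝ ∞ α ∧ ContDiff ℝ ∞ β ∧
    (∀ u, c u ^ 2 + s u ^ 2 = 1) ∧ (∀ u, 0 < cos (θ u)) ∧ (∀ u, 0 < sin (θ u)) ∧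
    (∀ u, HasDerivAt θ (c u) u) ∧
    (∀ u, HasDerivAt α (sin (θ u) / cos (θ u) * s u) u) ∧
    (∀ u, HasDerivAt β (-(cos (θ u) / sin (θ u)) * s u) u) ∧
    (∀ u, θ (u + J) = θ u) ∧ (∀ u, α (u + J) = α u) ∧ (∀ u, β (u + J) = β u) := by
  obtain ⟨a, ha⟩ := exists_zero
  have hpi := pi_pos
  -- the profile
  set c1 : ℝ → ℝ := fun ψ => cos (a * sin ψ) with hc1
  set s1 : ℝ → ℝ := fun ψ => sin (a * sin ψ) with hs1
  have c1cd : ContDiff ℝ ∞ c1 := by
    apply ContDiff.cos; exact contDiff_const.mul contDiff_sin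
  have s1cd : ContDiff ℝ ∞ s1 := by
    apply ContDiff.sin; exact contDiff_const.mul contDiff_sin
  have c1cont : Continuous c1 := c1cd.continuous
  have c1per : Function.Periodic c1 π := by
    intro ψ
    simp only [hc1, sin_add_pi, mul_neg, cos_neg]
  have s1anti : ∀ ψ, s1 (ψ + π) = - s1 ψ := by
    intro ψ
    simp only [hs1, sin_add_pi, mul_neg, sin_neg]
  set Θ : ℝ → ℝ := prim c1 with hΘ
  have Θcd : ContDiff ℝ ∞ Θ := prim_contDiff c1cd
  have Θder : ∀ ψ, HasDerivAt Θ (c1 ψ) ψ := prim_hasDerivAt c1cont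
  have Θper : Function.Periodic Θ π := by
    intro ψ
    have h1 := prim_add c1cont ψ π
    have h2 := c1per.intervalIntegral_add_eq ψ 0
    have h3 : ∫ t in (0:ℝ)..(0 + π), c1 t = 0 := by
      rw [zero_add]; exact ha
    have h4 : prim c1 (ψ + π) - prim c1 ψ = 0 := by rw [h1, h2, h3]
    have : prim c1 (ψ + π) = prim c1 ψ := by linarith
    exact this
  have Θbd : ∀ ψ, |Θ ψ| ≤ π := by
    intro ψ
    obtain ⟨y, hy, hyeq⟩ := Θper.exists_mem_Ico₀ hpi ψ
    rw [hyeq]
    have hb : ‖∫ t in (0:ℝ)..y, c1 t‖ ≤ 1 * |y - 0| := by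
      apply intervalIntegral.norm_integral_le_of_norm_le_const
      intro x _
      rw [Real.norm_eq_abs]
      exact abs_cos_le_one _
    rw [Real.norm_eq_abs, one_mul, sub_zero, abs_of_nonneg hy.1] at hb
    have : |Θ y| ≤ y := hb
    linarith [hy.2]
  -- the scale
  obtain ⟨m0, hm0⟩ := exists_nat_gt (8 * J / (2 * π))
  set m : ℕ := m0 + 1 with hm
  have hmpos : (0:ℝ) < m := by positivity
  have hmgt : 8 * J / (2 * π) < (m:ℝ) := by
    have : (m0:ℝ) < m := by simp [hm]
    linarith
  set ν : ℝ := 2 * π * m / J with hν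
  have hνpos : 0 < ν := by positivity
  have hν8 : 8 ≤ ν := by
    rw [hν, le_div_iff₀ hJ]
    rw [div_lt_iff₀ (by positivity)] at hmgt
    nlinarith
  -- the latitude
  set θ : ℝ → ℝ := fun u => π / 4 + Θ (ν * u) / ν with hθ
  have θcd : ContDiff ℝ ∞ θ := by
    apply contDiff_const.add
    apply ContDiff.div_const
    exact Θcd.comp (contDiff_const.mul contDiff_id)
  have θder : ∀ u, HasDerivAt θ (c1 (ν * u)) u := by
    intro u
    have h1 : HasDerivAt (fun u => ν * u) ν u := by
      simpa using (hasDerivAt_id u).const_mul ν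
    have h2 := (Θder (ν * u)).comp u h1
    have h3 := (h2.div_const ν).const_add (π / 4)
    have h4 : c1 (ν * u) * ν / ν = c1 (ν * u) := by field_simp
    rw [h4] at h3
    exact h3
  have θbd : ∀ u, π / 8 ≤ θ u ∧ θ u ≤ 3 * π / 8 := by
    intro u
    have h1 := Θbd (ν * u)
    have h2 : |Θ (ν * u) / ν| ≤ π / 8 := by
      rw [abs_div, abs_of_pos hνpos]
      apply div_le_of_le_mul₀ hνpos.le (by positivity)
      nlinarith [abs_nonneg (Θ (ν * u))]
    have h3 := abs_le.mp h2
    constructor
    · simp only [hθ]; linarith [h3.1]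
    · simp only [hθ]; linarith [h3.2]
  have cospos : ∀ u, 0 < cos (θ u) := by
    intro u
    obtain ⟨h1, h2⟩ := θbd u
    apply cos_pos_of_mem_Ioo
    constructor <;> linarith
  have sinpos : ∀ u, 0 < sin (θ u) := by
    intro u
    obtain ⟨h1, h2⟩ := θbd u
    apply sin_pos_of_pos_of_lt_pi <;> linarith
  -- half period
  set q : ℝ := π / ν with hq
  have hνq : ∀ u, ν * (u + q) = ν * u + π := by
    intro u
    rw [hq]; field_simp
  have θper : ∀ u, θ (u + q) = θ u := by
    intro u
    simp only [hθ]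
    rw [hνq, Θper]
  -- the longitudes
  set g1 : ℝ → ℝ := fun w => sin (θ w) / cos (θ w) * s1 (ν * w) with hg1
  set g2 : ℝ → ℝ := fun w => -(cos (θ w) / sin (θ w)) * s1 (ν * w) with hg2
  have s1comp : ContDiff ℝ ∞ (fun w => s1 (ν * w)) :=
    s1cd.comp (contDiff_const.mul contDiff_id)
  have g1cd : ContDiff ℝ ∞ g1 := by
    apply ContDiff.mul _ s1comp
    exact (θcd.sin).div (θcd.cos) (fun u => (cospos u).ne')
  have g2cd : ContDiff ℝ ∞ g2 := by
    apply ContDiff.mul _ s1comp
    exact ((θcd.cos).div (θcd.sin) (fun u => (sinpos u).ne')).neg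
  have g1anti : ∀ u, g1 (u + q) = - g1 u := by
    intro u
    simp only [hg1]
    rw [θper, hνq, s1anti]; ring
  have g2anti : ∀ u, g2 (u + q) = - g2 u := by
    intro u
    simp only [hg2]
    rw [θper, hνq, s1anti]; ring
  -- the length
  have hJq : (m:ℝ) * (2 * q) = J := by
    rw [hq, hν]; field_simp
  have hθJ : ∀ u, θ (u + J) = θ u := by
    have hp : Function.Periodic θ q := θper
    have hp2 := hp.nat_mul (2 * m)
    intro u
    have := hp2 u
    have h5 : ((2 * m : ℕ) : ℝ) * q = J := by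
      push_cast; linarith
    rwa [h5] at this
  have hper (g : ℝ → ℝ) (hg : Continuous g) (hanti : ∀ u, g (u + q) = - g u) :
      ∀ u, prim g (u + J) = prim g u := by
    have hp : Function.Periodic (prim g) (2 * q) := prim_anti hg hanti
    have hp2 := hp.nat_mul m
    intro u
    have := hp2 u
    rwa [hJq] at this
  refine ⟨θ, prim g1, prim g2, fun u => c1 (ν * u), fun u => s1 (ν * u), θcd,
    prim_contDiff g1cd, prim_contDiff g2cd, ?_, cospos, sinpos, θder, ?_, ?_, hθJ,
    hper g1 g1cd.continuous g1anti, hper g2 g2cd.continuous g2anti⟩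
  · intro u
    simp only [hc1, hs1]
    nlinarith [cos_sq_add_sin_sq (a * sin (ν * u))]
  · exact prim_hasDerivAt g1cd.continuous
  · exact prim_hasDerivAt g2cd.continuous

end Vale.Agent.Lib.P205
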