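import Vale.Agent.Lib.P205.Curve

/-!
# Warped tori in `ℝ⁴`

The metric `E(x) dx² + G(x) dy²` on the torus `ℝ² / (L ℤ × c ℤ)` is realised by
`F(x,y) = r(x) e^{iKy} σ(V(x))` where `σ` is a unit speed closed horizontal curve on `S³`,
`K = 2 π N / c` is large, `r = √G / K` and `V' = √(E - r'²) / r`.
-/

open scoped ContDiff
open Real

namespace Vale.Agent.Lib.P205

lemma pair_identity (A B D C S v1 v2 w1 w2 : ℝ) (h : C ^ 2 + S ^ 2 = 1) :
    ((A * C - B * S) * v1 + (-(D * S)) * v2) * ((A * C - B * S) * w1 + (-(D * S)) * w2)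
      + ((A * S + B * C) * v1 + (D * C) * v2) * ((A * S + B * C) * w1 + (D * C) * w2)
      = (A ^ 2 + B ^ 2) * (v1 * w1) + B * D * (v1 * w2 + v2 * w1) + D ^ 2 * (v2 * w2) := by
  linear_combination (A ^ 2 * v1 * w1 + (B * v1 + D * v2) * (B * w1 + D * w2)) * h

lemma fderiv_cos_form (U a : ℝ → ℝ) (K : ℝ) (p v : ℝ × ℝ) {U' a' : ℝ}
    (hU : HasDerivAt U U' p.1) (ha : HasDerivAt a a' p.1) :
    fderiv ℝ (fun q : ℝ × ℝ => U q.1 * cos (K * q.2 + a q.1)) p v
      = (U' * cos (K * p.2 + a p.1) - (U p.1 * a') * sin (K * p.2 + a p.1)) * v.1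
        + (-((K * U p.1) * sin (K * p.2 + a p.1))) * v.2 := by
  have hfst : HasFDerivAt (fun q : ℝ × ℝ => q.1) (ContinuousLinearMap.fst ℝ ℝ ℝ) p :=
    hasFDerivAt_fst
  have hsnd : HasFDerivAt (fun q : ℝ × ℝ => q.2) (ContinuousLinearMap.snd ℝ ℝ ℝ) p :=
    hasFDerivAt_snd
  have h1 := hU.comp_hasFDerivAt p hfst
  have h2 := ha.comp_hasFDerivAt p hfst
  have h3 := ((hsnd.const_mul K).add h2).cos
  have h4 := (h1.mul h3).fderiv
  have h5 : (fun q : ℝ × ℝ => U q.1 * cos (K * q.2 + a q.1))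
      = (fun y : ℝ × ℝ => (U ∘ fun q : ℝ × ℝ => q.1) y
          * cos ((fun q : ℝ × ℝ => K * q.2) y + (a ∘ fun q : ℝ × ℝ => q.1) y)) := rfl
  rw [h5]
  erw [h4]
  simp
  ring

lemma fderiv_sin_form (U a : ℝ → ℝ) (K : ℝ) (p v : ℝ × ℝ) {U' a' : ℝ}
    (hU : HasDerivAt U U' p.1) (ha : HasDerivAt a a' p.1) :
    fderiv ℝ (fun q : ℝ × ℝ => U q.1 * sin (K * q.2 + a q.1)) p v
      = (U' * sin (K * p.2 + a p.1) + (U p.1 * a') * cos (K * p.2 + a p.1)) * v.1
        + ((K * U p.1) * cos (K * p.2 + a p.1)) * v.2 := by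
  have hfst : HasFDerivAt (fun q : ℝ × ℝ => q.1) (ContinuousLinearMap.fst ℝ ℝ ℝ) p :=
    hasFDerivAt_fst
  have hsnd : HasFDerivAt (fun q : ℝ × ℝ => q.2) (ContinuousLinearMap.snd ℝ ℝ ℝ) p :=
    hasFDerivAt_snd
  have h1 := hU.comp_hasFDerivAt p hfst
  have h2 := ha.comp_hasFDerivAt p hfst
  have h3 := ((hsnd.const_mul K).add h2).sin
  have h4 := (h1.mul h3).fderiv
  have h5 : (fun q : ℝ × ℝ => U q.1 * sin (K * q.2 + a q.1))
      = (fun y : ℝ × ℝ => (U ∘ fun q : ℝ × ℝ => q.1) y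
          * sin ((fun q : ℝ × ℝ => K * q.2) y + (a ∘ fun q : ℝ × ℝ => q.1) y)) := rfl
  rw [h5]
  erw [h4]
  simp
  ring

lemma form_cos_contDiff {U a : ℝ → ℝ} (K : ℝ) (hU : ContDiff ℝ ∞ U) (ha : ContDiff ℝ ∞ a) :
    ContDiff ℝ ∞ (fun q : ℝ × ℝ => U q.1 * cos (K * q.2 + a q.1)) := by
  apply ContDiff.mul (hU.comp contDiff_fst)
  apply ContDiff.cos
  exact (contDiff_const.mul contDiff_snd).add (ha.comp contDiff_fst)

lemma form_sin_contDiff {U a : ℝ → ℝ} (K : ℝ) (hU : ContDiff ℝ ∞ U) (ha : ContDiff ℝ ∞ a) :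
    ContDiff ℝ ∞ (fun q : ℝ × ℝ => U q.1 * sin (K * q.2 + a q.1)) := by
  apply ContDiff.mul (hU.comp contDiff_fst)
  apply ContDiff.sin
  exact (contDiff_const.mul contDiff_snd).add (ha.comp contDiff_fst)

/-- Every metric `E(x) dx² + G(x) dy²` on a torus has a smooth isometric immersion in `ℝ⁴`. -/
theorem warpedTorus (L c : ℝ) (hL : 0 < L) (hc : 0 < c) (E G : ℝ → ℝ)
    (hE : ContDiff ℝ ∞ E) (hG : ContDiff ℝ ∞ G)
    (perE : ∀ x, E (x + L) = E x) (perG : ∀ x, G (x + L) = G x)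
    (posE : ∀ x, 0 < E x) (posG : ∀ x, 0 < G x) :
    ∃ F : Fin 4 → ℝ × ℝ → ℝ,
      (∀ i, ContDiff ℝ ∞ (F i)) ∧
      (∀ i x y, F i (x + L, y) = F i (x, y)) ∧
      (∀ i x y, F i (x, y + c) = F i (x, y)) ∧
      ∀ p v w : ℝ × ℝ,
        ∑ i, fderiv ℝ (F i) p v * fderiv ℝ (F i) p w
          = E p.1 * (v.1 * w.1) + G p.1 * (v.2 * w.2) := by
  have hpi := pi_pos
  -- the square root of `G` and its derivative
  obtain ⟨ρ, hρ⟩ : ∃ ρ : ℝ → ℝ, ∀ x, ρ x = √(G x) := ⟨_, fun _ => rfl⟩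
  have ρfun : ρ = fun x => √(G x) := funext hρ
  have ρcd : ContDiff ℝ ∞ ρ := by
    rw [ρfun]; exact hG.sqrt (fun x => (posG x).ne')
  have ρpos : ∀ x, 0 < ρ x := fun x => by rw [hρ]; exact Real.sqrt_pos.mpr (posG x)
  have ρsq : ∀ x, ρ x ^ 2 = G x := fun x => by rw [hρ]; exact Real.sq_sqrt (posG x).le
  have ρper : ∀ x, ρ (x + L) = ρ x := by
    intro x; rw [hρ, hρ, perG]
  obtain ⟨ρdiff, ρ'cd⟩ := contDiff_infty_iff_deriv.mp ρcd
  obtain ⟨ρ', hρ'⟩ : ∃ ρ' : ℝ → ℝ, ρ' = deriv ρ := ⟨_, rfl⟩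
  rw [← hρ'] at ρ'cd
  have ρder : ∀ x, HasDerivAt ρ (ρ' x) x := fun x => by
    rw [hρ']; exact (ρdiff x).hasDerivAt
  have ρ'per : ∀ x, ρ' (x + L) = ρ' x := by
    intro x
    have h1 : deriv (fun y => ρ (y + L)) x = deriv ρ (x + L) := deriv_comp_add_const ρ L x
    have h2 : (fun y => ρ (y + L)) = ρ := funext ρper
    rw [h2] at h1
    rw [hρ']
    exact h1.symm
  -- the bound for the derivative relative to `E`
  have hper : Function.Periodic (fun x => ρ' x ^ 2 / E x) L := by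
    intro x; simp only; rw [ρ'per, perE]
  have hcont : Continuous (fun x => ρ' x ^ 2 / E x) :=
    (ρ'cd.continuous.pow 2).div hE.continuous (fun x => (posE x).ne')
  obtain ⟨M, hM⟩ := (hper.isBounded_of_continuous hL.ne' hcont).exists_norm_le
  have hMbd : ∀ x, ρ' x ^ 2 / E x ≤ M := by
    intro x
    have := hM _ (Set.mem_range_self x)
    rw [Real.norm_eq_abs] at this
    exact (le_abs_self _).trans this
  -- the frequency
  obtain ⟨N0, hN0⟩ := exists_nat_gt ((1 + |M|) * c / (2 * π))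
  obtain ⟨N, hN⟩ : ∃ N : ℕ, N = N0 + 1 := ⟨_, rfl⟩
  have hNpos : (0:ℝ) < N := by rw [hN]; positivity
  have hNgt : (1 + |M|) * c / (2 * π) < (N:ℝ) := by
    have : (N0:ℝ) < N := by rw [hN]; simp
    linarith
  obtain ⟨K, hK⟩ : ∃ K : ℝ, K = 2 * π * N / c := ⟨_, rfl⟩
  have hKc : K * c = N * (2 * π) := by rw [hK]; field_simp
  have hK1 : 1 + |M| < K := by
    rw [hK, lt_div_iff₀ hc]
    rw [div_lt_iff₀ (by positivity)] at hNgt
    linarith
  have hKpos : 0 < K := by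
    have := abs_nonneg M
    linarith
  have hKK : M < K ^ 2 := by
    have h1 := abs_nonneg M
    have h2 := le_abs_self M
    nlinarith
  clear hK hNgt hN0 hN
  -- radius
  obtain ⟨r, hr⟩ : ∃ r : ℝ → ℝ, ∀ x, r x = ρ x / K := ⟨_, fun _ => rfl⟩
  obtain ⟨r', hr'⟩ : ∃ r' : ℝ → ℝ, ∀ x, r' x = ρ' x / K := ⟨_, fun _ => rfl⟩
  have rfun : r = fun x => ρ x / K := funext hr
  have r'fun : r' = fun x => ρ' x / K := funext hr'
  have rcd : ContDiff ℝ ∞ r := by rw [rfun]; exact ρcd.div_const K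
  have r'cd : ContDiff ℝ ∞ r' := by rw [r'fun]; exact ρ'cd.div_const K
  have rder : ∀ x, HasDerivAt r (r' x) x := fun x => by
    rw [rfun, hr']; exact (ρder x).div_const K
  have rpos : ∀ x, 0 < r x := fun x => by rw [hr]; exact div_pos (ρpos x) hKpos
  have rper : ∀ x, r (x + L) = r x := by
    intro x; rw [hr, hr, ρper]
  have r'per : ∀ x, r' (x + L) = r' x := by
    intro x; rw [hr', hr', ρ'per]
  -- the remaining speed
  obtain ⟨Q, hQ⟩ : ∃ Q : ℝ → ℝ, ∀ x, Q x = E x - r' x ^ 2 := ⟨_, fun _ => rfl⟩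
  have Qfun : Q = fun x => E x - r' x ^ 2 := funext hQ
  have Qcd : ContDiff ℝ ∞ Q := by rw [Qfun]; exact hE.sub (r'cd.pow 2)
  have Qpos : ∀ x, 0 < Q x := by
    intro x
    have h1 := hMbd x
    rw [div_le_iff₀ (posE x)] at h1
    have h2 : (r' x) ^ 2 = ρ' x ^ 2 / K ^ 2 := by rw [hr', div_pow]
    have h3 : r' x ^ 2 < E x := by
      rw [h2, div_lt_iff₀ (by positivity)]
      have := posE x
      nlinarith
    rw [hQ]; linarith
  have Qper : ∀ x, Q (x + L) = Q x := by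
    intro x; rw [hQ, hQ, perE, r'per]
  obtain ⟨v, hv⟩ : ∃ v : ℝ → ℝ, ∀ x, v x = √(Q x) / r x := ⟨_, fun _ => rfl⟩
  have vfun : v = fun x => √(Q x) / r x := funext hv
  have vcd : ContDiff ℝ ∞ v := by
    rw [vfun]
    exact (Qcd.sqrt (fun x => (Qpos x).ne')).div rcd (fun x => (rpos x).ne')
  have vpos : ∀ x, 0 < v x := fun x => by
    rw [hv]; exact div_pos (Real.sqrt_pos.mpr (Qpos x)) (rpos x)
  have vper : Function.Periodic v L := by
    intro x; rw [hv, hv, Qper, rper]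
  have vsq : ∀ x, r x ^ 2 * v x ^ 2 = Q x := by
    intro x
    rw [hv, div_pow, Real.sq_sqrt (Qpos x).le]
    have := (rpos x).ne'
    field_simp
  -- the arc length
  obtain ⟨V, hV⟩ : ∃ V : ℝ → ℝ, V = prim v := ⟨_, rfl⟩
  have Vcd : ContDiff ℝ ∞ V := by rw [hV]; exact prim_contDiff vcd
  have Vder : ∀ x, HasDerivAt V (v x) x := by
    rw [hV]; exact prim_hasDerivAt vcd.continuous
  obtain ⟨J, hJ⟩ : ∃ J : ℝ, J = V L := ⟨_, rfl⟩
  have Jpos : 0 < J := by
    rw [hJ, hV]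
    exact intervalIntegral.intervalIntegral_pos_of_pos
      (vcd.continuous.intervalIntegrable _ _) vpos hL
  have Vadd : ∀ x, V (x + L) = V x + J := by
    intro x
    have h1 := prim_add vcd.continuous x L
    have h2 := vper.intervalIntegral_add_eq x 0
    have h3 : ∫ t in (0:ℝ)..(0 + L), v t = J := by
      rw [zero_add, hJ, hV]; rfl
    have h4 : V (x + L) - V x = J := by
      rw [hV, h1, h2, h3]
    linarith
  -- the curve
  obtain ⟨θ, α, β, cc, ss, θcd, αcd, βcd, hcs, cospos, sinpos, θder, αder, βder, θper, αper, βper⟩ :=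
    curve J Jpos
  have ϑder : ∀ x, HasDerivAt (fun x => θ (V x)) (cc (V x) * v x) x :=
    fun x => (θder (V x)).comp x (Vder x)
  have ϑcd : ContDiff ℝ ∞ (fun x => θ (V x)) := θcd.comp Vcd
  obtain ⟨U, hU⟩ : ∃ U : ℝ → ℝ, ∀ x, U x = r x * cos (θ (V x)) := ⟨_, fun _ => rfl⟩
  obtain ⟨W, hW⟩ : ∃ W : ℝ → ℝ, ∀ x, W x = r x * sin (θ (V x)) := ⟨_, fun _ => rfl⟩
  obtain ⟨a, ha⟩ : ∃ a : ℝ → ℝ, ∀ x, a x = α (V x) := ⟨_, fun _ => rfl⟩
  obtain ⟨b, hb⟩ : ∃ b : ℝ → ℝ, ∀ x, b x = β (V x) := ⟨_, fun _ => rfl⟩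
  have Ufun : U = fun x => r x * cos (θ (V x)) := funext hU
  have Wfun : W = fun x => r x * sin (θ (V x)) := funext hW
  have afun : a = fun x => α (V x) := funext ha
  have bfun : b = fun x => β (V x) := funext hb
  have Ucd : ContDiff ℝ ∞ U := by rw [Ufun]; exact rcd.mul ϑcd.cos
  have Wcd : ContDiff ℝ ∞ W := by rw [Wfun]; exact rcd.mul ϑcd.sin
  have acd : ContDiff ℝ ∞ a := by rw [afun]; exact αcd.comp Vcd
  have bcd : ContDiff ℝ ∞ b := by rw [bfun]; exact βcd.comp Vcd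
  have Uder : ∀ x, HasDerivAt U
      (r' x * cos (θ (V x)) - r x * (sin (θ (V x)) * (cc (V x) * v x))) x := by
    intro x
    rw [Ufun]
    exact ((rder x).mul (ϑder x).cos).congr_deriv (by ring)
  have Wder : ∀ x, HasDerivAt W
      (r' x * sin (θ (V x)) + r x * (cos (θ (V x)) * (cc (V x) * v x))) x := by
    intro x
    rw [Wfun]
    exact ((rder x).mul (ϑder x).sin).congr_deriv (by ring)
  have ader : ∀ x, HasDerivAt a
      (sin (θ (V x)) / cos (θ (V x)) * ss (V x) * v x) x := by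
    intro x
    rw [afun]
    exact (αder (V x)).comp x (Vder x)
  have bder : ∀ x, HasDerivAt b
      (-(cos (θ (V x)) / sin (θ (V x))) * ss (V x) * v x) x := by
    intro x
    rw [bfun]
    exact (βder (V x)).comp x (Vder x)
  have Uper : ∀ x, U (x + L) = U x := by
    intro x; rw [hU, hU, rper, Vadd, θper]
  have Wper : ∀ x, W (x + L) = W x := by
    intro x; rw [hW, hW, rper, Vadd, θper]
  have aper : ∀ x, a (x + L) = a x := by
    intro x; rw [ha, ha, Vadd, αper]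
  have bper : ∀ x, b (x + L) = b x := by
    intro x; rw [hb, hb, Vadd, βper]
  -- the map
  refine ⟨![fun q => U q.1 * cos (K * q.2 + a q.1), fun q => U q.1 * sin (K * q.2 + a q.1),
      fun q => W q.1 * cos (K * q.2 + b q.1), fun q => W q.1 * sin (K * q.2 + b q.1)],
      ?_, ?_, ?_, ?_⟩
  · intro i
    fin_cases i
    · exact form_cos_contDiff K Ucd acd
    · exact form_sin_contDiff K Ucd acd
    · exact form_cos_contDiff K Wcd bcd
    · exact form_sin_contDiff K Wcd bcd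
  · intro i x y
    fin_cases i
    · show U (x + L) * cos (K * y + a (x + L)) = U x * cos (K * y + a x)
      rw [Uper, aper]
    · show U (x + L) * sin (K * y + a (x + L)) = U x * sin (K * y + a x)
      rw [Uper, aper]
    · show W (x + L) * cos (K * y + b (x + L)) = W x * cos (K * y + b x)
      rw [Wper, bper]
    · show W (x + L) * sin (K * y + b (x + L)) = W x * sin (K * y + b x)
      rw [Wper, bper]
  · intro i x y
    have e1 : ∀ d : ℝ, K * (y + c) + d = (K * y + d) + N * (2 * π) := by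
      intro d; rw [← hKc]; ring
    fin_cases i
    · show U x * cos (K * (y + c) + a x) = U x * cos (K * y + a x)
      rw [e1, cos_add_nat_mul_two_pi]
    · show U x * sin (K * (y + c) + a x) = U x * sin (K * y + a x)
      rw [e1, sin_add_nat_mul_two_pi]
    · show W x * cos (K * (y + c) + b x) = W x * cos (K * y + b x)
      rw [e1, cos_add_nat_mul_two_pi]
    · show W x * sin (K * (y + c) + b x) = W x * sin (K * y + b x)
      rw [e1, sin_add_nat_mul_two_pi]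
  · intro p v0 w0
    rw [Fin.sum_univ_four]
    show fderiv ℝ (fun q : ℝ × ℝ => U q.1 * cos (K * q.2 + a q.1)) p v0
          * fderiv ℝ (fun q : ℝ × ℝ => U q.1 * cos (K * q.2 + a q.1)) p w0
        + fderiv ℝ (fun q : ℝ × ℝ => U q.1 * sin (K * q.2 + a q.1)) p v0
          * fderiv ℝ (fun q : ℝ × ℝ => U q.1 * sin (K * q.2 + a q.1)) p w0
        + fderiv ℝ (fun q : ℝ × ℝ => W q.1 * cos (K * q.2 + b q.1)) p v0
          * fderiv ℝ (fun q : ℝ × ℝ => W q.1 * cos (K * q.2 + b q.1)) p w0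
        + fderiv ℝ (fun q : ℝ × ℝ => W q.1 * sin (K * q.2 + b q.1)) p v0
          * fderiv ℝ (fun q : ℝ × ℝ => W q.1 * sin (K * q.2 + b q.1)) p w0 = _
    rw [fderiv_cos_form U a K p v0 (Uder p.1) (ader p.1),
      fderiv_cos_form U a K p w0 (Uder p.1) (ader p.1),
      fderiv_sin_form U a K p v0 (Uder p.1) (ader p.1),
      fderiv_sin_form U a K p w0 (Uder p.1) (ader p.1),
      fderiv_cos_form W b K p v0 (Wder p.1) (bder p.1),
      fderiv_cos_form W b K p w0 (Wder p.1) (bder p.1),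
      fderiv_sin_form W b K p v0 (Wder p.1) (bder p.1),
      fderiv_sin_form W b K p w0 (Wder p.1) (bder p.1)]
    obtain ⟨x, hx⟩ : ∃ x, x = p.1 := ⟨_, rfl⟩
    rw [← hx]
    have id1 := pair_identity
      (r' x * cos (θ (V x)) - r x * (sin (θ (V x)) * (cc (V x) * v x)))
      (U x * (sin (θ (V x)) / cos (θ (V x)) * ss (V x) * v x)) (K * U x)
      (cos (K * p.2 + a x)) (sin (K * p.2 + a x)) v0.1 v0.2 w0.1 w0.2 (cos_sq_add_sin_sq _)
    have id2 := pair_identity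
      (r' x * sin (θ (V x)) + r x * (cos (θ (V x)) * (cc (V x) * v x)))
      (W x * (-(cos (θ (V x)) / sin (θ (V x))) * ss (V x) * v x)) (K * W x)
      (cos (K * p.2 + b x)) (sin (K * p.2 + b x)) v0.1 v0.2 w0.1 w0.2 (cos_sq_add_sin_sq _)
    have hC := (cospos (V x)).ne'
    have hS := (sinpos (V x)).ne'
    have e1 : U x * (sin (θ (V x)) / cos (θ (V x)) * ss (V x) * v x)
        = r x * sin (θ (V x)) * ss (V x) * v x := by
      rw [hU]; field_simp
    have e2 : W x * (-(cos (θ (V x)) / sin (θ (V x))) * ss (V x) * v x)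
        = - (r x * cos (θ (V x)) * ss (V x) * v x) := by
      rw [hW]; field_simp
    rw [e1] at id1
    rw [e2] at id2
    rw [e1, e2]
    have hpyth := cos_sq_add_sin_sq (θ (V x))
    have hq1 : r x ^ 2 * v x ^ 2 = E x - r' x ^ 2 := by rw [vsq x, hQ]
    have hG1 : K ^ 2 * r x ^ 2 = G x := by
      rw [← ρsq x, hr, div_pow]; field_simp
    have hcs1 := hcs (V x)
    have T1 : (r' x * cos (θ (V x)) - r x * (sin (θ (V x)) * (cc (V x) * v x))) ^ 2
        + (r x * sin (θ (V x)) * ss (V x) * v x) ^ 2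
        + (r' x * sin (θ (V x)) + r x * (cos (θ (V x)) * (cc (V x) * v x))) ^ 2
        + (- (r x * cos (θ (V x)) * ss (V x) * v x)) ^ 2 = E x := by
      have : (r' x * cos (θ (V x)) - r x * (sin (θ (V x)) * (cc (V x) * v x))) ^ 2
        + (r x * sin (θ (V x)) * ss (V x) * v x) ^ 2
        + (r' x * sin (θ (V x)) + r x * (cos (θ (V x)) * (cc (V x) * v x))) ^ 2
        + (- (r x * cos (θ (V x)) * ss (V x) * v x)) ^ 2
        = (r' x ^ 2 + r x ^ 2 * v x ^ 2 * (cc (V x) ^ 2 + ss (V x) ^ 2))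
          * (cos (θ (V x)) ^ 2 + sin (θ (V x)) ^ 2) := by ring
      rw [this, hpyth, hcs1, hq1]; ring
    have T2 : r x * sin (θ (V x)) * ss (V x) * v x * (K * U x)
        + (- (r x * cos (θ (V x)) * ss (V x) * v x)) * (K * W x) = 0 := by
      rw [hU, hW]; ring
    have T3 : (K * U x) ^ 2 + (K * W x) ^ 2 = G x := by
      rw [← hG1, hU, hW]
      linear_combination K ^ 2 * r x ^ 2 * hpyth
    linear_combination id1 + id2 + (v0.1 * w0.1) * T1 + (v0.1 * w0.2 + v0.2 * w0.1) * T2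
      + (v0.2 * w0.2) * T3

end Vale.Agent.Lib.P205
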